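import Vale.Agent.Lib.P134.Rigidity

/-!
Classification of the monotone bounded Allen-Cahn solutions whose derivative in a fixed
direction is constant on level sets: they are exactly the functions `tanh ((⟪a, x⟫ - c) / √2)`.
-/

open InnerProductSpace Laplacian Topology

namespace Vale.Agent.Lib.P134

/-- Bounded strictly increasing solutions of `H'' = H^3 - H` on the line are the translates of
`tanh (r / √2)`. -/
lemma ode_tanh (H : ℝ → ℝ) (hH : ContDiff ℝ 2 H)
    (hode : ∀ r, deriv (deriv H) r = H r ^ 3 - H r)
    (hb : ∀ r, |H r| ≤ 1) (hpos : ∀ r, 0 < deriv H r) :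
    ∃ c : ℝ, ∀ r, H r = Real.tanh ((r - c) / Real.sqrt 2) := by
  have hH1 : Differentiable ℝ H := hH.differentiable (by norm_num)
  have hdH : Differentiable ℝ (deriv H) := by
    have : ContDiff ℝ 1 (deriv H) := by
      have h2 : ContDiff ℝ (1 + 1) H := by rw [one_add_one_eq_two]; exact hH
      exact (contDiff_succ_iff_deriv.1 h2).2.2
    exact this.differentiable (by norm_num)
  have hmono : StrictMono H := strictMono_of_deriv_pos hpos
  have hlt : ∀ r, H r < 1 := fun r =>
    lt_of_lt_of_le (hmono (lt_add_one r)) (abs_le.1 (hb (r + 1))).2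
  have hgt : ∀ r, -1 < H r := fun r =>
    lt_of_le_of_lt (abs_le.1 (hb (r - 1))).1 (hmono (sub_one_lt r))
  have hsq : ∀ r, 0 < 1 - H r ^ 2 := fun r => by nlinarith [hlt r, hgt r]
  -- the first integral
  have hEd : ∀ r, HasDerivAt (fun r => deriv H r ^ 2 / 2 - (1 - H r ^ 2) ^ 2 / 4) 0 r := by
    intro r
    have a := (hH1 r).hasDerivAt
    have b := (hdH r).hasDerivAt
    have h1 : HasDerivAt (fun r => deriv H r ^ 2 / 2)
        (deriv H r * deriv (deriv H) r) r :=
      ((b.fun_pow 2).div_const 2).congr_deriv (by push_cast; ring)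
    have h2 : HasDerivAt (fun r => (1 - H r ^ 2) ^ 2 / 4)
        (-((1 - H r ^ 2) * H r * deriv H r)) r :=
      ((((a.fun_pow 2).const_sub 1).fun_pow 2).div_const 4).congr_deriv (by push_cast; ring)
    exact (h1.fun_sub h2).congr_deriv (by rw [hode r]; ring)
  have hEc : ∀ r, deriv H r ^ 2 / 2 - (1 - H r ^ 2) ^ 2 / 4
      = deriv H 0 ^ 2 / 2 - (1 - H 0 ^ 2) ^ 2 / 4 := fun r =>
    is_const_of_deriv_eq_zero (fun r => (hEd r).differentiableAt) (fun r => (hEd r).deriv) r 0
  set E0 : ℝ := deriv H 0 ^ 2 / 2 - (1 - H 0 ^ 2) ^ 2 / 4 with hE0def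
  have hE0 : E0 = 0 := by
    rcases lt_trichotomy E0 0 with hneg | hzero | hposE
    · exfalso
      -- 1 - H^2 is bounded below by a positive constant
      set δ : ℝ := Real.sqrt (-4 * E0) with hδ
      have hδpos : 0 < δ := Real.sqrt_pos.2 (by linarith)
      have hδsq : δ ^ 2 = -4 * E0 := Real.sq_sqrt (by linarith)
      have hδb : ∀ r, δ ≤ 1 - H r ^ 2 := by
        intro r
        by_contra hcon
        have hcon' : 1 - H r ^ 2 < δ := not_le.1 hcon
        have h3 : (1 - H r ^ 2) ^ 2 < δ ^ 2 := by
          have := hsq r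
          nlinarith
        have h4 := hEc r
        nlinarith [sq_nonneg (deriv H r)]
      by_cases hex : ∃ r₀, 0 < H r₀
      · obtain ⟨r₀, hr₀⟩ := hex
        set η := H r₀ with hη
        -- deriv H is forced to become negative to the right
        have hanti : AntitoneOn (fun r => deriv H r + η * δ * r) (Set.Ici r₀) := by
          apply antitoneOn_of_deriv_nonpos (convex_Ici r₀)
          · exact (hdH.continuous.add (continuous_const.mul continuous_id)).continuousOn
          · exact (hdH.add ((differentiable_const _).mul differentiable_id)).differentiableOn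
          · intro r hr
            rw [interior_Ici] at hr
            have hr' : r₀ < r := hr
            have hd : HasDerivAt (fun r => deriv H r + η * δ * r)
                (deriv (deriv H) r + η * δ) r := by
              exact (((hdH r).hasDerivAt).fun_add
                ((hasDerivAt_id r).const_mul (η * δ))).congr_deriv (by ring)
            rw [hd.deriv, hode r]
            have h5 : η ≤ H r := (hmono hr').le
            have h6 := hδb r
            have h7 : H r ^ 3 - H r = -(H r * (1 - H r ^ 2)) := by ring
            rw [h7]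
            have h8 : η * δ ≤ H r * (1 - H r ^ 2) :=
              mul_le_mul h5 h6 hδpos.le (hr₀.le.trans h5)
            linarith
        set r₁ := r₀ + deriv H r₀ / (η * δ) + 1 with hr₁
        have hηδ : 0 < η * δ := mul_pos hr₀ hδpos
        have hr₁ge : r₀ ≤ r₁ := by
          have : 0 ≤ deriv H r₀ / (η * δ) := div_nonneg (hpos r₀).le hηδ.le
          linarith
        have h9 := hanti (Set.mem_Ici.2 le_rfl) (Set.mem_Ici.2 hr₁ge) hr₁ge
        simp only at h9
        have h10 : η * δ * r₁ = η * δ * r₀ + deriv H r₀ + η * δ := by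
          rw [hr₁]
          field_simp
        have := hpos r₁
        linarith
      · have hle : ∀ r, H r ≤ 0 := fun r => not_lt.1 (fun h => hex ⟨r, h⟩)
        set r₀ : ℝ := -1 with hr₀
        set η := -H r₀ with hη
        have hηpos : 0 < η := by
          have : H r₀ < H 0 := hmono (by rw [hr₀]; norm_num)
          have := hle 0
          rw [hη]
          linarith
        have hmon : MonotoneOn (fun r => deriv H r - η * δ * r) (Set.Iic r₀) := by
          apply monotoneOn_of_deriv_nonneg (convex_Iic r₀)
          · exact (hdH.continuous.sub (continuous_const.mul continuous_id)).continuousOn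
          · exact (hdH.sub ((differentiable_const _).mul differentiable_id)).differentiableOn
          · intro r hr
            rw [interior_Iic] at hr
            have hr' : r < r₀ := hr
            have hd : HasDerivAt (fun r => deriv H r - η * δ * r)
                (deriv (deriv H) r - η * δ) r := by
              exact (((hdH r).hasDerivAt).fun_sub
                ((hasDerivAt_id r).const_mul (η * δ))).congr_deriv (by ring)
            rw [hd.deriv, hode r]
            have h5 : η ≤ -H r := by
              have := (hmono hr').le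
              rw [hη]
              linarith
            have h6 := hδb r
            have h7 : H r ^ 3 - H r = (-H r) * (1 - H r ^ 2) := by ring
            rw [h7]
            have h8 : η * δ ≤ (-H r) * (1 - H r ^ 2) :=
              mul_le_mul h5 h6 hδpos.le (hηpos.le.trans h5)
            linarith
        set r₁ := r₀ - deriv H r₀ / (η * δ) - 1 with hr₁
        have hηδ : 0 < η * δ := mul_pos hηpos hδpos
        have hr₁le : r₁ ≤ r₀ := by
          have : 0 ≤ deriv H r₀ / (η * δ) := div_nonneg (hpos r₀).le hηδ.le
          linarith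
        have h9 := hmon (Set.mem_Iic.2 hr₁le) (Set.mem_Iic.2 le_rfl) hr₁le
        simp only at h9
        have h10 : η * δ * r₁ = η * δ * r₀ - deriv H r₀ - η * δ := by
          rw [hr₁]
          field_simp
        have := hpos r₁
        linarith
    · exact hzero
    · exfalso
      set m : ℝ := Real.sqrt (2 * E0) with hm
      have hmpos : 0 < m := Real.sqrt_pos.2 (by linarith)
      have hmsq : m ^ 2 = 2 * E0 := Real.sq_sqrt (by linarith)
      have hmb : ∀ r, m ≤ deriv H r := by
        intro r
        by_contra hcon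
        have hcon' : deriv H r < m := not_le.1 hcon
        have h3 : deriv H r ^ 2 < m ^ 2 := by
          have := hpos r
          nlinarith
        have h4 := hEc r
        nlinarith [sq_nonneg (1 - H r ^ 2)]
      have hK : Monotone (fun r => H r - m * r) := by
        apply monotone_of_deriv_nonneg
        · exact hH1.sub ((differentiable_const _).mul differentiable_id)
        · intro r
          have hd : HasDerivAt (fun r => H r - m * r) (deriv H r - m) r := by
            exact (((hH1 r).hasDerivAt).fun_sub
              ((hasDerivAt_id r).const_mul m)).congr_deriv (by ring)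
          rw [hd.deriv]
          linarith [hmb r]
      have h5 := hK (show (0:ℝ) ≤ 3 / m from by positivity)
      simp only at h5
      have h6 : m * (3 / m) = 3 := by field_simp
      have h7 := hlt (3 / m)
      have h8 := hgt 0
      linarith
  -- the first-order equation
  have hs2 : 0 < Real.sqrt 2 := Real.sqrt_pos.2 (by norm_num)
  have hs2sq : Real.sqrt 2 ^ 2 = 2 := Real.sq_sqrt (by norm_num)
  have hfirst : ∀ r, deriv H r * Real.sqrt 2 = 1 - H r ^ 2 := by
    intro r
    have h1 := hEc r
    rw [hE0] at h1
    have h2 : (deriv H r * Real.sqrt 2) ^ 2 = (1 - H r ^ 2) ^ 2 := by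
      rw [mul_pow, hs2sq]
      linarith
    exact (sq_eq_sq₀ (mul_pos (hpos r) hs2).le (hsq r).le).1 h2
  -- integrate
  have hψd : ∀ r, HasDerivAt
      (fun r => 1 / 2 * (Real.log (1 + H r) - Real.log (1 - H r)) - r / Real.sqrt 2) 0 r := by
    intro r
    have a := (hH1 r).hasDerivAt
    have hp : 1 + H r ≠ 0 := by linarith [hgt r]
    have hq : 1 - H r ≠ 0 := by linarith [hlt r]
    have h1 : HasDerivAt (fun r => Real.log (1 + H r)) (deriv H r / (1 + H r)) r :=
      (a.const_add 1).log hp
    have h2 : HasDerivAt (fun r => Real.log (1 - H r)) (-deriv H r / (1 - H r)) r :=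
      (a.const_sub 1).log hq
    have h3 := ((h1.fun_sub h2).const_mul (1 / 2)).fun_sub ((hasDerivAt_id r).div_const (Real.sqrt 2))
    refine h3.congr_deriv ?_
    have h4 := hfirst r
    have h5 : (1 + H r) * (1 - H r) = deriv H r * Real.sqrt 2 := by rw [h4]; ring
    field_simp
    nlinarith [h5]
  have hψc : ∀ r, 1 / 2 * (Real.log (1 + H r) - Real.log (1 - H r)) - r / Real.sqrt 2
      = 1 / 2 * (Real.log (1 + H 0) - Real.log (1 - H 0)) - 0 / Real.sqrt 2 := fun r =>
    is_const_of_deriv_eq_zero (fun r => (hψd r).differentiableAt) (fun r => (hψd r).deriv) r 0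
  set ψ0 : ℝ := 1 / 2 * (Real.log (1 + H 0) - Real.log (1 - H 0)) with hψ0
  refine ⟨-Real.sqrt 2 * ψ0, fun r => ?_⟩
  have hmem : H r ∈ Set.Ioo (-1 : ℝ) 1 := ⟨hgt r, hlt r⟩
  have hp : 1 + H r ≠ 0 := by linarith [hgt r]
  have hq : 1 - H r ≠ 0 := by linarith [hlt r]
  have h1 : Real.artanh (H r) = ψ0 + r / Real.sqrt 2 := by
    rw [Real.artanh_eq_half_log ⟨hmem.1.le, hmem.2.le⟩, Real.log_div hp hq]
    have := hψc r
    simp only [zero_div, sub_zero] at this
    linarith
  have h2 : (r - -Real.sqrt 2 * ψ0) / Real.sqrt 2 = ψ0 + r / Real.sqrt 2 := by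
    field_simp
    ring
  rw [h2, ← h1, Real.tanh_artanh hmem]


variable {E : Type*} [NormedAddCommGroup E] [InnerProductSpace ℝ E] [FiniteDimensional ℝ E]

/-- For bounded `C^2` solutions of the Allen-Cahn equation on `E` with positive derivative in
the direction `e`: this derivative is constant on every level set if and only if the solution
is `tanh ((⟪a, x⟫ - c) / √2)` for a unit vector `a` with `0 < ⟪a, e⟫`. -/
theorem level_iff_tanh (u : E → ℝ) (hu : ContDiff ℝ 2 u) (e : E)
    (hAC : ∀ x, Δ u x = u x ^ 3 - u x) (hb : ∀ x, |u x| ≤ 1)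
    (hpos : ∀ x, 0 < fderiv ℝ u x e) :
    (∀ x y, u x = u y → fderiv ℝ u x e = fderiv ℝ u y e) ↔
    ∃ (a : E) (c : ℝ), ‖a‖ = 1 ∧ 0 < inner ℝ a e ∧
      ∀ x, u x = Real.tanh ((inner ℝ a x - c) / Real.sqrt 2) := by
  have hu1 : Differentiable ℝ u := hu.differentiable (by norm_num)
  constructor
  · intro hlevel
    obtain ⟨a₀, H₀, ha₀, hH₀⟩ := one_dim_of_level u hu e hAC hpos hlevel
    have hne : inner ℝ a₀ e ≠ 0 := by
      intro h0
      have hconst : ∀ s : ℝ, u ((0:E) + s • e) = u 0 := by
        intro s
        rw [hH₀, hH₀, inner_add_right, inner_smul_right, h0]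
        simp
      have hd : HasDerivAt (fun s : ℝ => u ((0:E) + s • e)) (fderiv ℝ u 0 e) 0 := by
        have h1 : HasDerivAt (fun s : ℝ => (0:E) + s • e) e 0 := by
          simpa using ((hasDerivAt_id (0:ℝ)).smul_const e).const_add 0
        have h2 : HasFDerivAt u (fderiv ℝ u 0) ((0:E) + (0:ℝ) • e) := by
          simpa using (hu1 0).hasFDerivAt
        exact h2.comp_hasDerivAt 0 h1
      have hfe : (fun s : ℝ => u ((0:E) + s • e)) = fun _ => u 0 := funext hconst
      rw [hfe] at hd
      have := hd.unique (hasDerivAt_const 0 (u 0))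
      exact (hpos 0).ne' this
    obtain ⟨a, ha, hae, H₁, hH₁⟩ : ∃ a : E, ‖a‖ = 1 ∧ 0 < inner ℝ a e ∧
        ∃ H₁ : ℝ → ℝ, ∀ x, u x = H₁ (inner ℝ a x) := by
      rcases lt_or_gt_of_ne hne with hlt | hgt
      · refine ⟨-a₀, by simpa using ha₀, by simpa using hlt, fun r => H₀ (-r), fun x => ?_⟩
        rw [hH₀ x]
        simp
      · exact ⟨a₀, ha₀, hgt, H₀, hH₀⟩
    set H : ℝ → ℝ := fun r => u (r • a) with hHdef
    have haa : inner ℝ a a = 1 := by
      rw [real_inner_self_eq_norm_sq, ha]
      norm_num
    have huH : ∀ x, u x = H (inner ℝ a x) := by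
      intro x
      show u x = u (inner ℝ a x • a)
      rw [hH₁ x, hH₁ (inner ℝ a x • a), inner_smul_right, haa, mul_one]
    have hHC2 : ContDiff ℝ 2 H := hu.comp (by fun_prop)
    set W : E → ℝ := fun x => inner ℝ a x with hWdef
    have hWlin : W = ⇑(innerSL ℝ a) := rfl
    have hWC2 : ContDiff ℝ 2 W := by
      rw [hWlin]
      exact (innerSL ℝ a).contDiff
    have hWfd : ∀ x, fderiv ℝ W x = innerSL ℝ a := fun x => by
      rw [hWlin]
      exact (innerSL ℝ a).fderiv
    have hWlap : ∀ x, Δ W x = 0 := by
      intro x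
      rw [laplacian_eq_iteratedFDeriv_stdOrthonormalBasis]
      simp only [iteratedFDeriv_two_apply]
      have hfe : fderiv ℝ W = fun _ => innerSL ℝ a := funext hWfd
      rw [hfe]
      simp
    have hH1 : Differentiable ℝ H := hHC2.differentiable (by norm_num)
    have hWr : ∀ r : ℝ, W (r • a) = r := fun r => by
      show inner ℝ a (r • a) = r
      rw [inner_smul_right, haa, mul_one]
    have hode : ∀ r, deriv (deriv H) r = H r ^ 3 - H r := by
      intro r
      have hx := hAC (r • a)
      have hfun : u = fun z => H (W z) := funext huH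
      have hl : Δ u (r • a) = deriv (deriv H) (W (r • a)) * ‖fderiv ℝ W (r • a)‖ ^ 2
          + deriv H (W (r • a)) * Δ W (r • a) := by
        rw [hfun]
        exact laplacian_comp H W hHC2 hWC2 _
      rw [hl, hWfd, hWlap, innerSL_apply_norm, ha, hWr] at hx
      have hur : u (r • a) = H r := rfl
      rw [hur] at hx
      linarith
    have hHb : ∀ r, |H r| ≤ 1 := fun r => hb _
    have hHpos : ∀ r, 0 < deriv H r := by
      intro r
      have h1 : HasFDerivAt u (deriv H (W (r • a)) • fderiv ℝ W (r • a)) (r • a) := by
        have h0 := (hH1 (W (r • a))).hasDerivAt.comp_hasFDerivAt (r • a)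
          (hWC2.differentiable (by norm_num) (r • a)).hasFDerivAt
        have hfun : u = H ∘ W := funext huH
        rw [hfun]
        exact h0
      have h2 := hpos (r • a)
      rw [h1.fderiv, hWfd, hWr] at h2
      simp only [FunLike.coe_smul, Pi.smul_apply, innerSL_apply_apply,
        smul_eq_mul] at h2
      by_contra hcon
      have h3 := mul_nonpos_of_nonpos_of_nonneg (not_lt.1 hcon) hae.le
      linarith
    obtain ⟨c, hc⟩ := ode_tanh H hHC2 hode hHb hHpos
    exact ⟨a, c, ha, hae, fun x => by rw [huH x, hc]⟩
  · rintro ⟨a, c, ha, hae, hu'⟩ x y hxy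
    rw [hu' x, hu' y] at hxy
    have h1 := Real.tanh_injective hxy
    have hs2 : Real.sqrt 2 ≠ 0 := (Real.sqrt_pos.2 (by norm_num)).ne'
    have h2 : inner ℝ a x = inner ℝ a y := by
      field_simp at h1
      linarith
    have hinv : (fun z => u (z + (y - x))) = u := by
      funext z
      rw [hu' (z + (y - x)), hu' z, inner_add_right, inner_sub_right, h2]
      simp
    have h3 := fderiv_comp_add_right (𝕜 := ℝ) (f := u) (x := x) (y - x)
    rw [hinv] at h3
    rw [h3]
    congr 2
    abel

end Vale.Agent.Lib.P134
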