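import Mathlib

/-!
Auxiliary results for problem P134 (De Giorgi's conjecture for the Allen-Cahn equation).

Everything here is stated on a finite-dimensional real inner product space `E`.
-/

open InnerProductSpace Laplacian Topology

namespace Vale.Agent.Lib.P134

variable {E : Type*} [NormedAddCommGroup E] [InnerProductSpace ℝ E] [FiniteDimensional ℝ E]

/-- The Laplacian commutes with translations. -/
lemma laplacian_comp_add_right (f : E → ℝ) (a : E) (x : E) :
    Δ (fun z => f (z + a)) x = Δ f (x + a) := by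
  simp [laplacian_eq_iteratedFDeriv_stdOrthonormalBasis, iteratedFDeriv_comp_add_right]

/-- Second derivative of a composition `h ∘ W`, as a bilinear form. -/
lemma fderiv_fderiv_comp (h : ℝ → ℝ) (W : E → ℝ) (hh : ContDiff ℝ 2 h) (hW : ContDiff ℝ 2 W)
    (x a b : E) :
    fderiv ℝ (fderiv ℝ (fun z => h (W z))) x a b
      = deriv (deriv h) (W x) * (fderiv ℝ W x a * fderiv ℝ W x b)
        + deriv h (W x) * fderiv ℝ (fderiv ℝ W) x a b := by
  have hW1 : Differentiable ℝ W := hW.differentiable (by norm_num)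
  have hh1 : Differentiable ℝ h := hh.differentiable (by norm_num)
  have hdh : Differentiable ℝ (deriv h) := by
    have : ContDiff ℝ 1 (deriv h) := by
      have h2 : ContDiff ℝ (1 + 1) h := by rw [one_add_one_eq_two]; exact hh
      exact (contDiff_succ_iff_deriv.1 h2).2.2
    exact this.differentiable (by norm_num)
  have hdW : Differentiable ℝ (fderiv ℝ W) := by
    have : ContDiff ℝ 1 (fderiv ℝ W) := by
      have h2 : ContDiff ℝ (1 + 1) W := by rw [one_add_one_eq_two]; exact hW
      exact (contDiff_succ_iff_fderiv.1 h2).2.2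
    exact this.differentiable (by norm_num)
  have h1 : fderiv ℝ (fun z => h (W z)) = fun z => deriv h (W z) • fderiv ℝ W z := by
    funext z
    exact ((hh1 (W z)).hasDerivAt.comp_hasFDerivAt z (hW1 z).hasFDerivAt).fderiv
  rw [h1]
  have h2 : HasFDerivAt (fun z => deriv h (W z) • fderiv ℝ W z)
      (deriv h (W x) • fderiv ℝ (fderiv ℝ W) x
        + (deriv (deriv h) (W x) • fderiv ℝ W x).smulRight (fderiv ℝ W x)) x := by
    have hc : HasFDerivAt (fun z => deriv h (W z)) (deriv (deriv h) (W x) • fderiv ℝ W x) x :=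
      (hdh (W x)).hasDerivAt.comp_hasFDerivAt x (hW1 x).hasFDerivAt
    exact hc.smul (hdW x).hasFDerivAt
  rw [h2.fderiv]
  simp
  ring

/-- Chain rule for the Laplacian of `h ∘ W`. -/
lemma laplacian_comp (h : ℝ → ℝ) (W : E → ℝ) (hh : ContDiff ℝ 2 h) (hW : ContDiff ℝ 2 W)
    (x : E) :
    Δ (fun z => h (W z)) x
      = deriv (deriv h) (W x) * ‖fderiv ℝ W x‖ ^ 2 + deriv h (W x) * Δ W x := by
  simp only [laplacian_eq_iteratedFDeriv_stdOrthonormalBasis, iteratedFDeriv_two_apply]
  rw [OrthonormalBasis.norm_dual (stdOrthonormalBasis ℝ E)]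
  simp only [Matrix.cons_val_zero, Matrix.cons_val_one, fderiv_fderiv_comp h W hh hW]
  rw [Finset.sum_add_distrib, Finset.mul_sum, Finset.mul_sum]
  congr 1
  refine Finset.sum_congr rfl (fun i _ => ?_)
  ring


/-- Eikonal rigidity: a `C^2` function on a finite-dimensional real inner product space whose
differential has constant norm has constant differential. -/
lemma fderiv_eq_of_norm_const (W : E → ℝ) (hW : ContDiff ℝ 2 W) (c : ℝ)
    (hc : ∀ x, ‖fderiv ℝ W x‖ = c) (x₀ y₀ : E) : fderiv ℝ W x₀ = fderiv ℝ W y₀ := by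
  have hW1 : Differentiable ℝ W := hW.differentiable (by norm_num)
  have hL1 : ContDiff ℝ 1 (fderiv ℝ W) := by
    have h2 : ContDiff ℝ (1 + 1) W := by rw [one_add_one_eq_two]; exact hW
    exact (contDiff_succ_iff_fderiv.1 h2).2.2
  have hLd : Differentiable ℝ (fderiv ℝ W) := hL1.differentiable (by norm_num)
  have hAc : Continuous (fderiv ℝ (fderiv ℝ W)) := hL1.continuous_fderiv (by norm_num)
  set N : E → E := fun x => (InnerProductSpace.toDual ℝ E).symm (fderiv ℝ W x) with hN
  have hNinner : ∀ x w, fderiv ℝ W x w = inner ℝ (N x) w := fun x w => by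
    simp [hN, InnerProductSpace.toDual_symm_apply]
  have hNnorm : ∀ x, ‖N x‖ = c := fun x => by simp [hN, hc]
  have hNsub : ∀ x y, ‖N x - N y‖ = ‖fderiv ℝ W x - fderiv ℝ W y‖ := fun x y => by
    simp [hN, ← map_sub]
  have hAN : ∀ x, fderiv ℝ (fderiv ℝ W) x (N x) = 0 := by
    intro x
    have hmax : IsLocalMax (fun y => fderiv ℝ W y (N x)) x := by
      refine Filter.Eventually.of_forall (fun y => ?_)
      show fderiv ℝ W y (N x) ≤ fderiv ℝ W x (N x)
      rw [hNinner y, hNinner x]
      calc inner ℝ (N y) (N x) ≤ ‖N y‖ * ‖N x‖ := real_inner_le_norm _ _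
        _ = ‖N x‖ * ‖N x‖ := by rw [hNnorm y, hNnorm x]
        _ = inner ℝ (N x) (N x) := (real_inner_self_eq_norm_mul_norm _).symm
    have hder : HasFDerivAt (fun y => fderiv ℝ W y (N x))
        ((fderiv ℝ (fderiv ℝ W) x).flip (N x)) x := by
      have h1 := ((hLd x).hasFDerivAt).clm_apply (hasFDerivAt_const (N x) x)
      have h2 : fderiv ℝ W x ∘SL (0 : E →L[ℝ] E) + (fderiv ℝ (fderiv ℝ W) x).flip (N x)
          = (fderiv ℝ (fderiv ℝ W) x).flip (N x) := by simp
      rw [h2] at h1
      exact h1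
    have h0 := hmax.hasFDerivAt_eq_zero hder
    ext v
    have hsymm : IsSymmSndFDerivAt ℝ W x := hW.contDiffAt.isSymmSndFDerivAt (by simp)
    rw [hsymm.eq]
    have := congrArg (fun L => L v) h0
    simpa using this
  have hline : ∀ (x : E) (r : ℝ), fderiv ℝ W (x + r • N x) = fderiv ℝ W x := by
    intro x r
    set g : ℝ → (E →L[ℝ] ℝ) := fun s => fderiv ℝ W (x + (r * s) • N x) - fderiv ℝ W x with hg
    have hgd : ∀ s, HasDerivAt g (r • fderiv ℝ (fderiv ℝ W) (x + (r * s) • N x) (N x)) s := by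
      intro s
      have h1 : HasDerivAt (fun s : ℝ => x + (r * s) • N x) (r • N x) s := by
        have := (((hasDerivAt_id s).const_mul r).smul_const (N x)).const_add x
        simpa using this
      have h2 := (hLd (x + (r * s) • N x)).hasFDerivAt.comp_hasDerivAt s h1
      have h3 := h2.sub_const (fderiv ℝ W x)
      exact h3.congr_deriv (map_smul _ _ _)
    obtain ⟨K, hK⟩ : ∃ K, ∀ s ∈ Set.Icc (0:ℝ) 1,
        ‖fderiv ℝ (fderiv ℝ W) (x + (r * s) • N x)‖ ≤ K := by
      have hline_c : Continuous (fun s : ℝ => x + (r * s) • N x) := by fun_prop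
      have hAn : Continuous (fun y => ‖fderiv ℝ (fderiv ℝ W) y‖) :=
        (continuous_norm (E := E →L[ℝ] E →L[ℝ] ℝ)).comp hAc
      have hn : Continuous (fun s : ℝ => ‖fderiv ℝ (fderiv ℝ W) (x + (r * s) • N x)‖) :=
        hAn.comp hline_c
      have hcont : ContinuousOn (fun s : ℝ => ‖fderiv ℝ (fderiv ℝ W) (x + (r * s) • N x)‖)
          (Set.Icc 0 1) := hn.continuousOn
      obtain ⟨K, hK⟩ := isCompact_Icc.bddAbove_image hcont
      exact ⟨K, fun s hs => hK (Set.mem_image_of_mem _ hs)⟩
    have hzero : ∀ s ∈ Set.Icc (0:ℝ) 1, g s = 0 := by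
      apply eq_zero_of_abs_deriv_le_mul_abs_self_of_eq_zero_right (K := |r| * K)
        (f' := fun s => r • fderiv ℝ (fderiv ℝ W) (x + (r * s) • N x) (N x))
      · exact fun s _ => (hgd s).continuousAt.continuousWithinAt
      · exact fun s _ => (hgd s).hasDerivWithinAt
      · simp [hg]
      · intro s hs
        have hs' : s ∈ Set.Icc (0:ℝ) 1 := ⟨hs.1, hs.2.le⟩
        have e1 : fderiv ℝ (fderiv ℝ W) (x + (r * s) • N x) (N x)
            = fderiv ℝ (fderiv ℝ W) (x + (r * s) • N x) (N x - N (x + (r * s) • N x)) := by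
          rw [map_sub, hAN, sub_zero]
        rw [norm_smul, e1, Real.norm_eq_abs, mul_assoc]
        refine mul_le_mul_of_nonneg_left ?_ (abs_nonneg r)
        calc ‖fderiv ℝ (fderiv ℝ W) (x + (r * s) • N x) (N x - N (x + (r * s) • N x))‖
            ≤ ‖fderiv ℝ (fderiv ℝ W) (x + (r * s) • N x)‖ * ‖N x - N (x + (r * s) • N x)‖ :=
              ContinuousLinearMap.le_opNorm _ _
          _ ≤ K * ‖g s‖ := by
            rw [hNsub, hg]
            simp only
            rw [norm_sub_rev]
            exact mul_le_mul_of_nonneg_right (hK s hs') (norm_nonneg _)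
    have := hzero 1 ⟨zero_le_one, le_rfl⟩
    simpa [hg, sub_eq_zero] using this
  have hWline : ∀ (x : E) (r : ℝ), W (x + r • N x) = W x + c ^ 2 * r := by
    intro x r
    have hd : ∀ s, HasDerivAt (fun s : ℝ => W (x + s • N x) - c ^ 2 * s) 0 s := by
      intro s
      have h1 : HasDerivAt (fun s : ℝ => x + s • N x) (N x) s := by
        simpa using ((hasDerivAt_id s).smul_const (N x)).const_add x
      have h2 := (hW1 (x + s • N x)).hasFDerivAt.comp_hasDerivAt s h1
      have h3 := h2.sub ((hasDerivAt_id s).const_mul (c ^ 2))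
      exact h3.congr_deriv (by rw [hline, hNinner, real_inner_self_eq_norm_sq, hNnorm]; ring)
    have := is_const_of_deriv_eq_zero (fun s => (hd s).differentiableAt)
      (fun s => (hd s).deriv) r 0
    simp at this
    linarith
  have hLip : ∀ p q, W p - W q ≤ c * ‖p - q‖ := by
    intro p q
    have := (convex_univ).norm_image_sub_le_of_norm_fderiv_le (f := W) (𝕜 := ℝ)
      (fun x _ => hW1 x) (fun x _ => (hc x).le) (Set.mem_univ q) (Set.mem_univ p)
    exact (le_abs_self _).trans (by simpa [Real.norm_eq_abs] using this)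
  have hc0 : 0 ≤ c := by rw [← hc x₀]; exact norm_nonneg _
  rcases hc0.eq_or_lt with h0 | hpos
  · have h1 : fderiv ℝ W x₀ = 0 := norm_eq_zero.1 (by rw [hc, ← h0])
    have h2 : fderiv ℝ W y₀ = 0 := norm_eq_zero.1 (by rw [hc, ← h0])
    rw [h1, h2]
  · have hge : 2 * c ≤ ‖N x₀ + N y₀‖ := by
      by_contra hlt'
      have hlt := not_le.1 hlt'
      set D := c * ‖x₀ - y₀‖ - (W x₀ - W y₀) with hD
      set δ := c * (2 * c - ‖N x₀ + N y₀‖) with hδ
      have hδpos : 0 < δ := mul_pos hpos (by linarith)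
      have hT : ∀ T : ℝ, 0 < T → T * δ ≤ D := by
        intro T hTpos
        have h1 := hLip (x₀ + T • N x₀) (y₀ + (-T) • N y₀)
        rw [hWline, hWline] at h1
        have h2 : ‖x₀ + T • N x₀ - (y₀ + (-T) • N y₀)‖ ≤ ‖x₀ - y₀‖ + T * ‖N x₀ + N y₀‖ := by
          have : x₀ + T • N x₀ - (y₀ + (-T) • N y₀) = (x₀ - y₀) + T • (N x₀ + N y₀) := by
            simp only [neg_smul, smul_add]; abel
          rw [this]
          calc ‖(x₀ - y₀) + T • (N x₀ + N y₀)‖ ≤ ‖x₀ - y₀‖ + ‖T • (N x₀ + N y₀)‖ := norm_add_le _ _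
            _ = ‖x₀ - y₀‖ + T * ‖N x₀ + N y₀‖ := by
              rw [norm_smul, Real.norm_eq_abs, abs_of_pos hTpos]
        have h3 := mul_le_mul_of_nonneg_left h2 hc0
        simp only [hD, hδ]; nlinarith
      have := hT ((|D| + 1) / δ) (by positivity)
      rw [div_mul_cancel₀ _ hδpos.ne'] at this
      linarith [le_abs_self D]
    have hpar := parallelogram_law_with_norm ℝ (N x₀) (N y₀)
    rw [hNnorm, hNnorm] at hpar
    have hsub : ‖N x₀ - N y₀‖ = 0 := by
      nlinarith [norm_nonneg (N x₀ - N y₀), norm_nonneg (N x₀ + N y₀)]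
    rw [hNsub] at hsub
    exact sub_eq_zero.1 (norm_eq_zero.1 hsub)


/-- Phase function: if the derivative of `u` in the direction `e` is positive and constant on
each level set of `u`, then `u = h ∘ W` with `W` of class `C^2` and `W (x + s • e) = W x + s`. -/
lemma exists_phase (u : E → ℝ) (hu : ContDiff ℝ 2 u) (e : E)
    (hpos : ∀ x, 0 < fderiv ℝ u x e)
    (hlevel : ∀ x y, u x = u y → fderiv ℝ u x e = fderiv ℝ u y e) :
    ∃ (W : E → ℝ) (h : ℝ → ℝ), ContDiff ℝ 2 W ∧ ContDiff ℝ 2 h ∧ (∀ x, u x = h (W x)) ∧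
      (∀ (x : E) (s : ℝ), W (x + s • e) = W x + s) ∧ (∀ w, 0 < deriv h w) := by
  classical
  have hu1 : Differentiable ℝ u := hu.differentiable (by norm_num)
  have hdc : Continuous (fun x => fderiv ℝ u x e) := by
    have : Continuous (fderiv ℝ u) := hu.continuous_fderiv (by norm_num)
    exact this.clm_apply continuous_const
  obtain ⟨G, hG⟩ : ∃ G : ℝ → ℝ, ∀ x, G (u x) = fderiv ℝ u x e := by
    refine ⟨fun y => if hy : ∃ x, u x = y then fderiv ℝ u hy.choose e else 0, fun x => ?_⟩
    have hy : ∃ x', u x' = u x := ⟨x, rfl⟩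
    simp only [dif_pos hy]
    exact hlevel _ _ hy.choose_spec
  set R : Set ℝ := Set.range u with hR
  have hloc : ∀ x₀, R ∈ 𝓝 (u x₀) ∧ ContinuousAt G (u x₀) := by
    intro x₀
    set φ : ℝ → ℝ := fun s => u (x₀ + s • e) with hφ
    have hφd : HasStrictDerivAt φ (fderiv ℝ u x₀ e) 0 := by
      have h1 : HasStrictDerivAt (fun s : ℝ => x₀ + s • e) e 0 := by
        simpa using ((hasStrictDerivAt_id (0:ℝ)).smul_const e).const_add x₀
      have h2 : HasStrictFDerivAt u (fderiv ℝ u x₀) (x₀ + (0:ℝ) • e) := by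
        simpa using hu.contDiffAt.hasStrictFDerivAt (x := x₀) (by norm_num)
      exact h2.comp_hasStrictDerivAt 0 h1
    have hne : fderiv ℝ u x₀ e ≠ 0 := (hpos x₀).ne'
    have hφ0 : φ 0 = u x₀ := by simp [hφ]
    constructor
    · have := hφd.map_nhds_eq hne
      rw [hφ0] at this
      rw [← this]
      exact Filter.mem_map.2 (Filter.univ_mem' (fun s => ⟨x₀ + s • e, rfl⟩))
    · set τ := hφd.localInverse φ (fderiv ℝ u x₀ e) 0 hne with hτ
      have hτd : HasStrictDerivAt τ (fderiv ℝ u x₀ e)⁻¹ (φ 0) := hφd.to_localInverse hne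
      have hτc : ContinuousAt τ (φ 0) := (HasStrictDerivAt.hasDerivAt hτd).continuousAt
      have hτ0 : τ (φ 0) = 0 := (hφd.eventually_left_inverse hne).self_of_nhds
      have hev : ∀ᶠ y in 𝓝 (φ 0), φ (τ y) = y := hφd.eventually_right_inverse hne
      have hGe : G =ᶠ[𝓝 (φ 0)] fun y => fderiv ℝ u (x₀ + τ y • e) e := by
        filter_upwards [hev] with y hy
        rw [← hG (x₀ + τ y • e)]
        show G y = G (φ (τ y))
        rw [hy]
      rw [← hφ0]
      refine ContinuousAt.congr ?_ hGe.symm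
      have hc1 : ContinuousAt (fun y => x₀ + τ y • e) (φ 0) :=
        continuousAt_const.add (hτc.smul continuousAt_const)
      exact ContinuousAt.comp (g := fun x => fderiv ℝ u x e) hdc.continuousAt hc1
  have hRopen : IsOpen R := by
    rw [isOpen_iff_mem_nhds]
    rintro _ ⟨x, rfl⟩
    exact (hloc x).1
  have hRconn : R.OrdConnected := (isPreconnected_range hu.continuous).ordConnected
  have hGcont : ContinuousOn G R := by
    rintro _ ⟨x, rfl⟩
    exact (hloc x).2.continuousWithinAt
  have hGpos : ∀ y ∈ R, 0 < G y := by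
    rintro _ ⟨x, rfl⟩
    rw [hG]; exact hpos x
  have hGinv : ContinuousOn (fun y => (G y)⁻¹) R := hGcont.inv₀ (fun y hy => (hGpos y hy).ne')
  set y₀ := u 0 with hy₀
  have hy₀R : y₀ ∈ R := ⟨0, rfl⟩
  set Θ : ℝ → ℝ := fun y => ∫ r in y₀..y, (G r)⁻¹ with hΘ
  have hΘd : ∀ y ∈ R, HasDerivAt Θ (G y)⁻¹ y := by
    intro y hy
    have hsub : Set.uIcc y₀ y ⊆ R := hRconn.uIcc_subset hy₀R hy
    have hint : IntervalIntegrable (fun r => (G r)⁻¹) MeasureTheory.volume y₀ y :=
      (hGinv.mono hsub).intervalIntegrable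
    exact intervalIntegral.integral_hasDerivAt_right hint
      (hGinv.stronglyMeasurableAtFilter hRopen y hy) (hGinv.continuousAt (hRopen.mem_nhds hy))
  have hΘmono : StrictMonoOn Θ R := by
    apply strictMonoOn_of_deriv_pos hRconn.convex
    · exact fun y hy => (hΘd y hy).continuousAt.continuousWithinAt
    · intro y hy
      have hy' : y ∈ R := interior_subset hy
      rw [(hΘd y hy').deriv]
      exact inv_pos.2 (hGpos y hy')
  set W : E → ℝ := fun x => Θ (u x) with hW
  have hWd : ∀ x, HasFDerivAt W ((fderiv ℝ u x e)⁻¹ • fderiv ℝ u x) x := by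
    intro x
    have h1 := hΘd (u x) ⟨x, rfl⟩
    rw [hG] at h1
    exact h1.comp_hasFDerivAt x (hu1 x).hasFDerivAt
  have hWfd : fderiv ℝ W = fun x => (fderiv ℝ u x e)⁻¹ • fderiv ℝ u x :=
    funext fun x => (hWd x).fderiv
  have hWC2 : ContDiff ℝ 2 W := by
    have h2 : ContDiff ℝ (1 + 1) W := by
      rw [contDiff_succ_iff_fderiv]
      refine ⟨fun x => (hWd x).differentiableAt, by simp, ?_⟩
      rw [hWfd]
      have hd1 : ContDiff ℝ 1 (fderiv ℝ u) := hu.fderiv_right (by norm_num)
      have hd2 : ContDiff ℝ 1 (fun x => fderiv ℝ u x e) := hd1.clm_apply contDiff_const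
      exact (hd2.inv (fun x => (hpos x).ne')).smul hd1
    rw [one_add_one_eq_two] at h2
    exact h2
  have hWshift : ∀ (x : E) (s : ℝ), W (x + s • e) = W x + s := by
    intro x s
    have hd : ∀ t : ℝ, HasDerivAt (fun t : ℝ => W (x + t • e) - t) 0 t := by
      intro t
      have h1 : HasDerivAt (fun t : ℝ => x + t • e) e t := by
        simpa using ((hasDerivAt_id t).smul_const e).const_add x
      have h2 := (hWd (x + t • e)).comp_hasDerivAt t h1
      have h3 := h2.sub (hasDerivAt_id t)
      refine h3.congr_deriv ?_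
      simp [inv_mul_cancel₀ (hpos (x + t • e)).ne']
    have := is_const_of_deriv_eq_zero (fun t => (hd t).differentiableAt)
      (fun t => (hd t).deriv) s 0
    simp at this
    linarith
  set h : ℝ → ℝ := fun w => u ((w - W 0) • e) with hh
  have hhd : ∀ w, HasDerivAt h (fderiv ℝ u ((w - W 0) • e) e) w := by
    intro w
    have h1 : HasDerivAt (fun w : ℝ => (w - W 0) • e) e w := by
      simpa using ((hasDerivAt_id w).sub_const (W 0)).smul_const e
    exact (hu1 ((w - W 0) • e)).hasFDerivAt.comp_hasDerivAt w h1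
  refine ⟨W, h, hWC2, ?_, ?_, hWshift, ?_⟩
  · have hlin : ContDiff ℝ 2 (fun w : ℝ => (w - W 0) • e) := by fun_prop
    exact hu.comp hlin
  · intro x
    have h1 : W ((W x - W 0) • e) = W x := by
      have := hWshift 0 (W x - W 0)
      simp only [zero_add] at this
      rw [this]; ring
    have h2 : Θ (u x) = Θ (h (W x)) := h1.symm
    exact hΘmono.injOn ⟨x, rfl⟩ ⟨_, rfl⟩ h2
  · intro w
    rw [(hhd w).deriv]
    exact hpos _


/-- Rigidity: a `C^2` solution of the Allen-Cahn equation on `E` whose derivative in a fixed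
direction `e` is positive and constant on every level set is one-dimensional. -/
theorem one_dim_of_level (u : E → ℝ) (hu : ContDiff ℝ 2 u) (e : E)
    (hAC : ∀ x, Δ u x = u x ^ 3 - u x)
    (hpos : ∀ x, 0 < fderiv ℝ u x e)
    (hlevel : ∀ x y, u x = u y → fderiv ℝ u x e = fderiv ℝ u y e) :
    ∃ (a : E) (H : ℝ → ℝ), ‖a‖ = 1 ∧ ∀ x, u x = H (inner ℝ a x) := by
  obtain ⟨W, h, hW, hh, huW, hshift, hhpos⟩ := exists_phase u hu e hpos hlevel
  have hW1 : Differentiable ℝ W := hW.differentiable (by norm_num)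
  have hh1 : Differentiable ℝ h := hh.differentiable (by norm_num)
  have hdh : Differentiable ℝ (deriv h) := by
    have : ContDiff ℝ 1 (deriv h) := by
      have h2 : ContDiff ℝ (1 + 1) h := by rw [one_add_one_eq_two]; exact hh
      exact (contDiff_succ_iff_deriv.1 h2).2.2
    exact this.differentiable (by norm_num)
  have hfd_shift : ∀ (x : E) (s : ℝ), fderiv ℝ W (x + s • e) = fderiv ℝ W x := by
    intro x s
    have h1 : (fun z => W (z + s • e)) = fun z => W z + s := funext fun z => hshift z s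
    have h2 := fderiv_comp_add_right (𝕜 := ℝ) (f := W) (x := x) (s • e)
    rw [h1, fderiv_add_const] at h2
    exact h2.symm
  have hlap_shift : ∀ (x : E) (s : ℝ), Δ W (x + s • e) = Δ W x := by
    intro x s
    have h1 : (fun z => W (z + s • e)) = fun z => W z + s := funext fun z => hshift z s
    have h2 := laplacian_comp_add_right W (s • e) x
    rw [h1] at h2
    rw [← h2]
    have h3 : (fun z => W z + s) = W + fun _ => s := rfl
    rw [h3, ContDiffAt.laplacian_add hW.contDiffAt contDiffAt_const]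
    simp
  have hstruct : ∀ (x : E) (w : ℝ),
      deriv (deriv h) w * ‖fderiv ℝ W x‖ ^ 2 + deriv h w * Δ W x = h w ^ 3 - h w := by
    intro x w
    have hx := hAC (x + (w - W x) • e)
    have hfun : u = fun z => h (W z) := funext huW
    have hl : Δ u (x + (w - W x) • e)
        = deriv (deriv h) (W (x + (w - W x) • e)) * ‖fderiv ℝ W (x + (w - W x) • e)‖ ^ 2
          + deriv h (W (x + (w - W x) • e)) * Δ W (x + (w - W x) • e) := by
      rw [hfun]
      exact laplacian_comp h W hh hW _
    rw [hl, huW, hshift, hfd_shift, hlap_shift] at hx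
    have hw : W x + (w - W x) = w := by ring
    rw [hw] at hx
    exact hx
  have hAconst : ∀ x y : E, ‖fderiv ℝ W x‖ ^ 2 = ‖fderiv ℝ W y‖ ^ 2 := by
    intro x y
    by_contra hne
    have hd : ‖fderiv ℝ W x‖ ^ 2 - ‖fderiv ℝ W y‖ ^ 2 ≠ 0 := sub_ne_zero.2 hne
    set c := -(Δ W x - Δ W y) / (‖fderiv ℝ W x‖ ^ 2 - ‖fderiv ℝ W y‖ ^ 2) with hc
    have h1 : ∀ w, deriv (deriv h) w = c * deriv h w := by
      intro w
      have e1 := hstruct x w
      have e2 := hstruct y w
      have e3 : deriv (deriv h) w * (‖fderiv ℝ W x‖ ^ 2 - ‖fderiv ℝ W y‖ ^ 2)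
          = -(Δ W x - Δ W y) * deriv h w := by linarith
      rw [hc, div_mul_eq_mul_div, eq_div_iff hd]
      exact e3
    set κ := c * ‖fderiv ℝ W x‖ ^ 2 + Δ W x with hκ
    have h2 : ∀ w, κ * deriv h w = h w ^ 3 - h w := by
      intro w
      have e1 := hstruct x w
      rw [h1 w] at e1
      rw [hκ]
      linarith
    have h3 : ∀ w, κ * deriv (deriv h) w = (3 * h w ^ 2 - 1) * deriv h w := by
      intro w
      have d1 : HasDerivAt (fun w => κ * deriv h w) (κ * deriv (deriv h) w) w :=
        (hdh w).hasDerivAt.const_mul κ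
      have d2 : HasDerivAt (fun w => h w ^ 3 - h w) (3 * h w ^ 2 * deriv h w - deriv h w) w := by
        have a := (hh1 w).hasDerivAt
        exact ((a.fun_pow 3).fun_sub a).congr_deriv (by push_cast; ring)
      have hfe : (fun w => κ * deriv h w) = fun w => h w ^ 3 - h w := funext h2
      rw [hfe] at d1
      have := d1.unique d2
      rw [this]
      ring
    have h4 : ∀ w, 3 * h w ^ 2 - 1 = κ * c := by
      intro w
      have e3 := h3 w
      rw [h1 w] at e3
      have hp := hhpos w
      have e4 : (κ * c - (3 * h w ^ 2 - 1)) * deriv h w = 0 := by linarith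
      rcases mul_eq_zero.1 e4 with h5 | h5
      · linarith
      · exact absurd h5 hp.ne'
    have h5 : ∀ w, h w * deriv h w = 0 := by
      intro w
      have d1 : HasDerivAt (fun w => 3 * h w ^ 2 - 1) (3 * (2 * h w * deriv h w)) w := by
        have a := (hh1 w).hasDerivAt
        exact (((a.fun_pow 2).const_mul 3).sub_const 1).congr_deriv (by push_cast; ring)
      have hfe : (fun w => 3 * h w ^ 2 - 1) = fun _ => κ * c := funext h4
      rw [hfe] at d1
      have := d1.unique (hasDerivAt_const w (κ * c))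
      linarith
    have h6 : ∀ w, h w = 0 := by
      intro w
      rcases mul_eq_zero.1 (h5 w) with h7 | h7
      · exact h7
      · exact absurd h7 (hhpos w).ne'
    have h7 : deriv h 0 = 0 := by
      have hfe : h = fun _ => 0 := funext h6
      rw [hfe]
      simp
    exact (hhpos 0).ne' h7
  have hnorm : ∀ x, ‖fderiv ℝ W x‖ = ‖fderiv ℝ W 0‖ := by
    intro x
    have := hAconst x 0
    exact (sq_eq_sq₀ (norm_nonneg _) (norm_nonneg _)).1 this
  have hconst : ∀ x, fderiv ℝ W x = fderiv ℝ W 0 :=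
    fun x => fderiv_eq_of_norm_const W hW _ hnorm x 0
  set L := fderiv ℝ W 0 with hL
  have hWaff : ∀ x, W x = W 0 + L x := by
    intro x
    have hd : ∀ z, HasFDerivAt (fun z => W z - L z) (0 : E →L[ℝ] ℝ) z := by
      intro z
      have := (hW1 z).hasFDerivAt.sub L.hasFDerivAt
      rw [hconst z, sub_self] at this
      exact this
    have := is_const_of_fderiv_eq_zero (𝕜 := ℝ) (fun z => (hd z).differentiableAt)
      (fun z => (hd z).fderiv) x 0
    simp at this
    linarith
  set N := (InnerProductSpace.toDual ℝ E).symm L with hN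
  have hLN : ∀ x, L x = inner ℝ N x := fun x => by
    simp [hN, InnerProductSpace.toDual_symm_apply]
  have hLe : L e = 1 := by
    have hd : HasDerivAt (fun s : ℝ => W (0 + s • e)) (L e) 0 := by
      have h1 : HasDerivAt (fun s : ℝ => (0:E) + s • e) e 0 := by
        simpa using ((hasDerivAt_id (0:ℝ)).smul_const e).const_add 0
      have h2 : HasFDerivAt W L ((0:E) + (0:ℝ) • e) := by
        simpa using (hW1 0).hasFDerivAt
      exact h2.comp_hasDerivAt 0 h1
    have hfe : (fun s : ℝ => W (0 + s • e)) = fun s => W 0 + s := funext fun s => hshift 0 s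
    rw [hfe] at hd
    have h3 : HasDerivAt (fun s : ℝ => W 0 + s) 1 0 := by
      simpa using (hasDerivAt_id (0:ℝ)).const_add (W 0)
    exact hd.unique h3
  have hN0 : N ≠ 0 := by
    intro h0
    have := hLN e
    rw [h0, inner_zero_left, hLe] at this
    exact one_ne_zero this
  have hNpos : 0 < ‖N‖ := norm_pos_iff.2 hN0
  refine ⟨‖N‖⁻¹ • N, fun r => h (W 0 + ‖N‖ * r), ?_, ?_⟩
  · rw [norm_smul, norm_inv, norm_norm, inv_mul_cancel₀ hNpos.ne']
  · intro x
    rw [huW x, hWaff x, hLN x, real_inner_smul_left]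
    congr 2
    field_simp

end Vale.Agent.Lib.P134
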