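import Vale.Agent.Lib.P134.Rigidity

/-!
Allen-Cahn solutions of the separated form `u x = a x * Y ⟪e, x⟫ + b x`, with `a` and `b`
invariant under translations along the unit vector `e`, depend only on `⟪e, x⟫`.
-/

open InnerProductSpace Laplacian Topology

namespace Vale.Agent.Lib.P134

/-- A real cubic that vanishes on the range of an injective function has vanishing
coefficients of degree three and two. -/
lemma cubic_coeff_zero (Y : ℝ → ℝ) (hY : Function.Injective Y) (c₃ c₂ c₁ c₀ : ℝ)
    (h : ∀ t, c₃ * Y t ^ 3 + c₂ * Y t ^ 2 + c₁ * Y t + c₀ = 0) : c₃ = 0 ∧ c₂ = 0 := by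
  classical
  set p : Polynomial ℝ := Polynomial.C c₃ * Polynomial.X ^ 3 + Polynomial.C c₂ * Polynomial.X ^ 2
    + Polynomial.C c₁ * Polynomial.X + Polynomial.C c₀ with hp
  have hroot : ∀ t, p.IsRoot (Y t) := by
    intro t
    simp only [hp, Polynomial.IsRoot.def, Polynomial.eval_add, Polynomial.eval_mul,
      Polynomial.eval_C, Polynomial.eval_pow, Polynomial.eval_X]
    exact h t
  have hinf : Set.Infinite {x | p.IsRoot x} :=
    (Set.infinite_range_of_injective hY).mono (by rintro _ ⟨t, rfl⟩; exact hroot t)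
  have hp0 : p = 0 := Polynomial.eq_zero_of_infinite_isRoot p hinf
  have h3 : p.coeff 3 = c₃ := by
    simp [hp]
  have h2 : p.coeff 2 = c₂ := by
    simp [hp]
  rw [hp0] at h3 h2
  simp at h3 h2
  exact ⟨h3.symm, h2.symm⟩

variable {E : Type*} [NormedAddCommGroup E] [InnerProductSpace ℝ E] [FiniteDimensional ℝ E]

/-- Second derivative of a product, as a bilinear form. -/
lemma fderiv_fderiv_mul (f g : E → ℝ) (hf : ContDiff ℝ 2 f) (hg : ContDiff ℝ 2 g)
    (x v w : E) :
    fderiv ℝ (fderiv ℝ (fun z => f z * g z)) x v w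
      = f x * fderiv ℝ (fderiv ℝ g) x v w + fderiv ℝ f x v * fderiv ℝ g x w
        + fderiv ℝ g x v * fderiv ℝ f x w + g x * fderiv ℝ (fderiv ℝ f) x v w := by
  have hf1 : Differentiable ℝ f := hf.differentiable (by norm_num)
  have hg1 : Differentiable ℝ g := hg.differentiable (by norm_num)
  have hdf : Differentiable ℝ (fderiv ℝ f) := by
    have : ContDiff ℝ 1 (fderiv ℝ f) := hf.fderiv_right (by norm_num)
    exact this.differentiable (by norm_num)
  have hdg : Differentiable ℝ (fderiv ℝ g) := by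
    have : ContDiff ℝ 1 (fderiv ℝ g) := hg.fderiv_right (by norm_num)
    exact this.differentiable (by norm_num)
  have h1 : fderiv ℝ (fun z => f z * g z) = fun z => f z • fderiv ℝ g z + g z • fderiv ℝ f z := by
    funext z
    exact ((hf1 z).hasFDerivAt.mul (hg1 z).hasFDerivAt).fderiv
  rw [h1]
  have h2 : HasFDerivAt (fun z => f z • fderiv ℝ g z + g z • fderiv ℝ f z)
      ((f x • fderiv ℝ (fderiv ℝ g) x + (fderiv ℝ f x).smulRight (fderiv ℝ g x))
        + (g x • fderiv ℝ (fderiv ℝ f) x + (fderiv ℝ g x).smulRight (fderiv ℝ f x))) x :=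
    ((hf1 x).hasFDerivAt.smul (hdg x).hasFDerivAt).add
      ((hg1 x).hasFDerivAt.smul (hdf x).hasFDerivAt)
  rw [h2.fderiv]
  simp
  ring

/-- The Laplacian of a product `a * (Y ∘ ⟪e, ·⟫)` when `a` is invariant along the unit
vector `e`. -/
lemma laplacian_mul_profile (a : E → ℝ) (Y : ℝ → ℝ) (e : E) (he : ‖e‖ = 1)
    (ha : ContDiff ℝ 2 a) (hY : ContDiff ℝ 2 Y)
    (hinv : ∀ (x : E) (s : ℝ), a (x + s • e) = a x) (x : E) :
    Δ (fun z => a z * Y (inner ℝ e z)) x
      = a x * deriv (deriv Y) (inner ℝ e x) + Y (inner ℝ e x) * Δ a x := by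
  set W : E → ℝ := fun z => inner ℝ e z with hWdef
  have hWlin : W = ⇑(innerSL ℝ e) := rfl
  have hWC2 : ContDiff ℝ 2 W := by
    rw [hWlin]
    exact (innerSL ℝ e).contDiff
  have hWfd : ∀ z, fderiv ℝ W z = innerSL ℝ e := fun z => by
    rw [hWlin]
    exact (innerSL ℝ e).fderiv
  have hWlap : ∀ z, Δ W z = 0 := by
    intro z
    rw [laplacian_eq_iteratedFDeriv_stdOrthonormalBasis]
    simp only [iteratedFDeriv_two_apply]
    have hfe : fderiv ℝ W = fun _ => innerSL ℝ e := funext hWfd
    rw [hfe]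
    simp
  set g : E → ℝ := fun z => Y (W z) with hg
  have hgC2 : ContDiff ℝ 2 g := hY.comp hWC2
  have hY1 : Differentiable ℝ Y := hY.differentiable (by norm_num)
  have hglap : Δ g x = deriv (deriv Y) (W x) := by
    have := laplacian_comp Y W hY hWC2 x
    rw [hWfd, hWlap, innerSL_apply_norm, he] at this
    rw [hg, this]
    ring
  have hgfd : fderiv ℝ g x = deriv Y (W x) • innerSL ℝ e := by
    have h0 := (hY1 (W x)).hasDerivAt.comp_hasFDerivAt x
      (hWC2.differentiable (by norm_num) x).hasFDerivAt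
    rw [hWfd] at h0
    exact h0.fderiv
  have hae : fderiv ℝ a x e = 0 := by
    have ha1 : Differentiable ℝ a := ha.differentiable (by norm_num)
    have hd : HasDerivAt (fun s : ℝ => a (x + s • e)) (fderiv ℝ a x e) 0 := by
      have h1 : HasDerivAt (fun s : ℝ => x + s • e) e 0 := by
        simpa using ((hasDerivAt_id (0:ℝ)).smul_const e).const_add x
      have h2 : HasFDerivAt a (fderiv ℝ a x) (x + (0:ℝ) • e) := by
        simpa using (ha1 x).hasFDerivAt
      exact h2.comp_hasDerivAt 0 h1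
    have hfe : (fun s : ℝ => a (x + s • e)) = fun _ => a x := funext fun s => hinv x s
    rw [hfe] at hd
    exact hd.unique (hasDerivAt_const 0 (a x))
  have hcross : ∑ i, fderiv ℝ a x (stdOrthonormalBasis ℝ E i)
      * fderiv ℝ g x (stdOrthonormalBasis ℝ E i) = 0 := by
    have h1 : ∀ i, fderiv ℝ a x (stdOrthonormalBasis ℝ E i)
        * fderiv ℝ g x (stdOrthonormalBasis ℝ E i)
        = deriv Y (W x) * fderiv ℝ a x
          (inner ℝ (stdOrthonormalBasis ℝ E i) e • stdOrthonormalBasis ℝ E i) := by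
      intro i
      rw [hgfd, map_smul]
      simp only [FunLike.coe_smul, Pi.smul_apply, innerSL_apply_apply, smul_eq_mul]
      rw [real_inner_comm]
      ring
    simp only [h1]
    rw [← Finset.mul_sum, ← map_sum, (stdOrthonormalBasis ℝ E).sum_repr' e, hae, mul_zero]
  have hfun : (fun z => a z * Y (inner ℝ e z)) = fun z => a z * g z := rfl
  rw [hfun]
  simp only [laplacian_eq_iteratedFDeriv_stdOrthonormalBasis, iteratedFDeriv_two_apply,
    Matrix.cons_val_zero, Matrix.cons_val_one, fderiv_fderiv_mul a g ha hgC2]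
  have hglap' : ∑ i, fderiv ℝ (fderiv ℝ g) x (stdOrthonormalBasis ℝ E i)
      (stdOrthonormalBasis ℝ E i) = deriv (deriv Y) (W x) := by
    rw [← hglap]
    simp [laplacian_eq_iteratedFDeriv_stdOrthonormalBasis, iteratedFDeriv_two_apply]
  have hcross' : ∑ i, fderiv ℝ g x (stdOrthonormalBasis ℝ E i)
      * fderiv ℝ a x (stdOrthonormalBasis ℝ E i) = 0 := by
    rw [← hcross]
    exact Finset.sum_congr rfl (fun i _ => mul_comm _ _)
  rw [Finset.sum_add_distrib, Finset.sum_add_distrib, Finset.sum_add_distrib, ← Finset.mul_sum,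
    ← Finset.mul_sum, hglap', hcross, hcross']
  ring

/-- Allen-Cahn solutions of separated form depend only on `⟪e, x⟫`. -/
theorem one_dim_of_separated (u : E → ℝ) (hu : ContDiff ℝ 2 u) (e : E) (he : ‖e‖ = 1)
    (hAC : ∀ x, Δ u x = u x ^ 3 - u x) (hpos : ∀ x, 0 < fderiv ℝ u x e)
    (a b : E → ℝ) (Y : ℝ → ℝ)
    (ha : ∀ (x : E) (s : ℝ), a (x + s • e) = a x)
    (hb : ∀ (x : E) (s : ℝ), b (x + s • e) = b x)
    (hsep : ∀ x, u x = a x * Y (inner ℝ e x) + b x) :
    ∃ H : ℝ → ℝ, ∀ x, u x = H (inner ℝ e x) := by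
  have hu1 : Differentiable ℝ u := hu.differentiable (by norm_num)
  have hee : inner ℝ e e = 1 := by
    rw [real_inner_self_eq_norm_sq, he]
    norm_num
  have hℓ : ∀ (x : E) (s : ℝ), inner ℝ e (x + s • e) = inner ℝ e x + s := by
    intro x s
    rw [inner_add_right, inner_smul_right, hee, mul_one]
  have hmono : ∀ x : E, StrictMono (fun s : ℝ => u (x + s • e)) := by
    intro x
    apply strictMono_of_deriv_pos
    intro s
    have hd : HasDerivAt (fun s : ℝ => u (x + s • e)) (fderiv ℝ u (x + s • e) e) s := by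
      have h1 : HasDerivAt (fun s : ℝ => x + s • e) e s := by
        simpa using ((hasDerivAt_id s).smul_const e).const_add x
      exact (hu1 (x + s • e)).hasFDerivAt.comp_hasDerivAt s h1
    rw [hd.deriv]
    exact hpos _
  have hkey : ∀ (x : E) (s₁ s₂ : ℝ), s₁ < s₂ →
      0 < a x * (Y (inner ℝ e x + s₂) - Y (inner ℝ e x + s₁)) := by
    intro x s₁ s₂ h
    have h1 : u (x + s₁ • e) < u (x + s₂ • e) := hmono x h
    rw [hsep (x + s₁ • e), hsep (x + s₂ • e), ha, ha, hb, hb, hℓ, hℓ] at h1
    have h2 : a x * (Y (inner ℝ e x + s₂) - Y (inner ℝ e x + s₁))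
        = (a x * Y (inner ℝ e x + s₂) + b x) - (a x * Y (inner ℝ e x + s₁) + b x) := by ring
    rw [h2]
    linarith
  have hkey0 : ∀ s₁ s₂ : ℝ, s₁ < s₂ → 0 < a 0 * (Y s₂ - Y s₁) := by
    intro s₁ s₂ h
    have h1 := hkey 0 s₁ s₂ h
    rw [inner_zero_right, zero_add, zero_add] at h1
    exact h1
  have ha₀ne : a 0 ≠ 0 := by
    intro h0
    have h1 := hkey0 0 1 one_pos
    rw [h0, zero_mul] at h1
    exact lt_irrefl _ h1
  have hYinj : Function.Injective Y := by
    intro s₁ s₂ h
    by_contra hne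
    rcases lt_or_gt_of_ne hne with hlt | hgt
    · have h1 := hkey0 s₁ s₂ hlt
      rw [h, sub_self, mul_zero] at h1
      exact lt_irrefl _ h1
    · have h1 := hkey0 s₂ s₁ hgt
      rw [h, sub_self, mul_zero] at h1
      exact lt_irrefl _ h1
  have hsign : ∀ x, 0 < a x * a 0 := by
    intro x
    have h1 := hkey x 0 1 one_pos
    have h2 := hkey0 (inner ℝ e x + 0) (inner ℝ e x + 1) (by linarith)
    have h3 := mul_pos h1 h2
    have h4 : a x * (Y (inner ℝ e x + 1) - Y (inner ℝ e x + 0))
        * (a 0 * (Y (inner ℝ e x + 1) - Y (inner ℝ e x + 0)))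
        = (a x * a 0) * (Y (inner ℝ e x + 1) - Y (inner ℝ e x + 0)) ^ 2 := by ring
    rw [h4] at h3
    by_contra hcon
    have h5 := mul_nonpos_of_nonpos_of_nonneg (not_lt.1 hcon)
      (sq_nonneg (Y (inner ℝ e x + 1) - Y (inner ℝ e x + 0)))
    linarith
  have hYeq : ∀ s : ℝ, Y s = (u (s • e) - b 0) / a 0 := by
    intro s
    have h1 := hsep (0 + s • e)
    rw [ha, hb, hℓ, inner_zero_right, zero_add, zero_add] at h1
    rw [h1]
    field_simp
    ring
  have hYC2 : ContDiff ℝ 2 Y := by
    have hfe : Y = fun s => (u (s • e) - b 0) / a 0 := funext hYeq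
    rw [hfe]
    have h1 : ContDiff ℝ 2 (fun s : ℝ => u (s • e)) := hu.comp (by fun_prop)
    exact (h1.sub contDiff_const).div_const (a 0)
  have hden : ∀ x : E, Y (inner ℝ e x + 1) - Y (inner ℝ e x) ≠ 0 := by
    intro x h0
    have h1 := hYinj (sub_eq_zero.1 h0)
    linarith
  have haeq : ∀ x : E, a x = (u (x + e) - u x) / (Y (inner ℝ e x + 1) - Y (inner ℝ e x)) := by
    intro x
    have h1 := hsep (x + (1:ℝ) • e)
    rw [ha, hb, hℓ, one_smul] at h1
    rw [h1, hsep x, eq_div_iff (hden x)]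
    ring
  have hin : ContDiff ℝ 2 (fun x : E => inner ℝ e x) := (innerSL ℝ e).contDiff
  have haC2 : ContDiff ℝ 2 a := by
    have hfe : a = fun x => (u (x + e) - u x) / (Y (inner ℝ e x + 1) - Y (inner ℝ e x)) :=
      funext haeq
    rw [hfe]
    have h1 : ContDiff ℝ 2 (fun x : E => u (x + e) - u x) := (hu.comp (by fun_prop)).sub hu
    have h2 : ContDiff ℝ 2 (fun x : E => Y (inner ℝ e x + 1) - Y (inner ℝ e x)) :=
      (hYC2.comp (hin.add contDiff_const)).sub (hYC2.comp hin)
    exact h1.div h2 hden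
  have hprodC2 : ContDiff ℝ 2 (fun x => a x * Y (inner ℝ e x)) := haC2.mul (hYC2.comp hin)
  have hbC2 : ContDiff ℝ 2 b := by
    have hfe : b = fun x => u x - a x * Y (inner ℝ e x) := funext fun x => by
      rw [hsep x]
      ring
    rw [hfe]
    exact hu.sub hprodC2
  have hlap : ∀ x, Δ u x
      = a x * deriv (deriv Y) (inner ℝ e x) + Y (inner ℝ e x) * Δ a x + Δ b x := by
    intro x
    have hfun : u = (fun z => a z * Y (inner ℝ e z)) + b := funext hsep
    rw [hfun, ContDiffAt.laplacian_add hprodC2.contDiffAt hbC2.contDiffAt,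
      laplacian_mul_profile a Y e he haC2 hYC2 ha x]
  have hlap_inv : ∀ (f : E → ℝ), (∀ (x : E) (s : ℝ), f (x + s • e) = f x) →
      ∀ (x : E) (s : ℝ), Δ f (x + s • e) = Δ f x := by
    intro f hf x s
    have h2 := laplacian_comp_add_right f (s • e) x
    have h1 : (fun z => f (z + s • e)) = f := funext fun z => hf z s
    rw [h1] at h2
    exact h2.symm
  have hstruct : ∀ (x : E) (t : ℝ), a x * deriv (deriv Y) t + Y t * Δ a x + Δ b x
      = (a x * Y t + b x) ^ 3 - (a x * Y t + b x) := by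
    intro x t
    have h1 := hAC (x + (t - inner ℝ e x) • e)
    rw [hlap, hsep (x + (t - inner ℝ e x) • e), ha, hb, hℓ, hlap_inv a ha, hlap_inv b hb] at h1
    have h2 : inner ℝ e x + (t - inner ℝ e x) = t := by ring
    rw [h2] at h1
    exact h1
  have hconst : ∀ x y : E, a x = a y ∧ b x = b y := by
    intro x y
    have hQ : ∀ t, (a y * a x ^ 3 - a x * a y ^ 3) * Y t ^ 3
        + (3 * a y * a x ^ 2 * b x - 3 * a x * a y ^ 2 * b y) * Y t ^ 2
        + (a y * (3 * a x * b x ^ 2 - a x - Δ a x) - a x * (3 * a y * b y ^ 2 - a y - Δ a y)) * Y t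
        + (a y * (b x ^ 3 - b x - Δ b x) - a x * (b y ^ 3 - b y - Δ b y)) = 0 := by
      intro t
      have e1 := hstruct x t
      have e2 := hstruct y t
      linear_combination (-(a y)) * e1 + (a x) * e2
    obtain ⟨h3, h2⟩ := cubic_coeff_zero Y hYinj _ _ _ _ hQ
    have hxy : 0 < a x * a y := by
      have h4 := mul_pos (hsign x) (hsign y)
      have h5 : a x * a 0 * (a y * a 0) = (a x * a y) * a 0 ^ 2 := by ring
      rw [h5] at h4
      by_contra hcon
      have h6 := mul_nonpos_of_nonpos_of_nonneg (not_lt.1 hcon) (sq_nonneg (a 0))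
      linarith
    have hsq : (a x - a y) * (a x + a y) = 0 := by
      have h4 : a x * a y * ((a x - a y) * (a x + a y)) = 0 := by
        linear_combination h3
      rcases mul_eq_zero.1 h4 with h | h
      · exact absurd h hxy.ne'
      · exact h
    have haxy : a x = a y := by
      rcases mul_eq_zero.1 hsq with h | h
      · linarith
      · exfalso
        have h5 : a x = -a y := by linarith
        rw [h5] at hxy
        nlinarith [sq_nonneg (a y)]
    refine ⟨haxy, ?_⟩
    have h4 : 3 * (a x * a y) * (a x * b x - a y * b y) = 0 := by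
      linear_combination h2
    rcases mul_eq_zero.1 h4 with h | h
    · exfalso
      have := hxy.ne'
      apply this
      linarith
    · rw [haxy] at h
      have h5 : a y * (b x - b y) = 0 := by linarith
      rcases mul_eq_zero.1 h5 with h6 | h6
      · exfalso
        rw [haxy, h6] at hxy
        simp at hxy
      · linarith
  refine ⟨fun t => a 0 * Y t + b 0, fun x => ?_⟩
  rw [hsep x, (hconst x 0).1, (hconst x 0).2]

end Vale.Agent.Lib.P134
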